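import Mathlib

set_option autoImplicit false

namespace Vale.Agent.P067

open Finset

section Defs

variable {V : Type} [Fintype V] [DecidableEq V]

open Classical in
noncomputable def faceSet (K : AbstractSimplicialComplex V) (i : ℕ) : Finset (Finset V) :=
  Finset.univ.filter (fun s => s ∈ K.faces ∧ s.card = i + 1)

def IsPure (K : AbstractSimplicialComplex V) (d : ℕ) : Prop :=
  ∀ s ∈ K.faces, ∃ t ∈ faceSet K d, s ⊆ t

noncomputable def topDegree (K : AbstractSimplicialComplex V) (d : ℕ) (s : Finset V) : ℕ :=
  ((faceSet K d).filter (fun t => s ⊆ t)).card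

noncomputable def weight (K : AbstractSimplicialComplex V) (d i : ℕ) (s : Finset V) : ℝ :=
  (topDegree K d s : ℝ) / (((d + 1).choose (i + 1) : ℝ) * ((faceSet K d).card : ℝ))

abbrev Cochain (K : AbstractSimplicialComplex V) (i : ℕ) : Type :=
  {s // s ∈ faceSet K i} → ZMod 2

noncomputable def cochainNorm (K : AbstractSimplicialComplex V) (d i : ℕ)
    (f : Cochain K i) : ℝ :=
  ∑ s with f s ≠ 0, weight K d i s.1

noncomputable def coboundary (K : AbstractSimplicialComplex V) (i : ℕ) :
    Cochain K i →ₗ[ZMod 2] Cochain K (i + 1) where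
  toFun f := fun t => ∑ s : {s // s ∈ faceSet K i} with s.1 ⊆ t.1, f s
  map_add' f g := by
    funext t
    simp [Finset.sum_add_distrib]
  map_smul' a f := by
    funext t
    simp [Finset.mul_sum]

noncomputable def cocycles (K : AbstractSimplicialComplex V) (i : ℕ) :
    Submodule (ZMod 2) (Cochain K i) :=
  LinearMap.ker (coboundary K i)

noncomputable def coboundaries (K : AbstractSimplicialComplex V) :
    (i : ℕ) → Submodule (ZMod 2) (Cochain K i)
  | 0 => Submodule.span (ZMod 2) {fun _ => 1}
  | i + 1 => LinearMap.range (coboundary K i)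

abbrev Cohomology (K : AbstractSimplicialComplex V) (i : ℕ) : Type :=
  (cocycles K i) ⧸ (coboundaries K i).submoduleOf (cocycles K i)

noncomputable def cochainDist (K : AbstractSimplicialComplex V) (d i : ℕ)
    (f : Cochain K i) (A : Submodule (ZMod 2) (Cochain K i)) : ℝ :=
  ⨅ a : A, cochainNorm K d i (f - a.1)

def IsCoboundaryExpander (K : AbstractSimplicialComplex V) (d : ℕ) (ε : ℝ) : Prop :=
  ∀ i < d, ∀ f : Cochain K i,
    ε * cochainDist K d i f (coboundaries K i) ≤ cochainNorm K d (i + 1) (coboundary K i f)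

end Defs

end Vale.Agent.P067
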