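import Mathlib
import Vale.Agent.P067.Basic

set_option autoImplicit false
set_option linter.unusedSectionVars false

namespace Vale.Agent.P067

open Finset

section Combinatorics

variable {V : Type} [Fintype V] [DecidableEq V]

lemma mem_faceSet (K : AbstractSimplicialComplex V) {i : ℕ} {s : Finset V} :
    s ∈ faceSet K i ↔ s ∈ K.faces ∧ s.card = i + 1 := by
  simp [faceSet]

lemma between_eq_image {s t : Finset V} (hst : s ⊆ t) :
    (Finset.univ.filter (fun u : Finset V => s ⊆ u ∧ u ⊆ t ∧ u.card = s.card + 1))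
      = (t \ s).image (fun x => insert x s) := by
  ext u
  simp only [Finset.mem_filter, Finset.mem_univ, true_and, Finset.mem_image, Finset.mem_sdiff]
  constructor
  · rintro ⟨hsu, hut, hc⟩
    have h1 : (u \ s).card = 1 := by
      rw [Finset.card_sdiff_of_subset hsu, hc]; omega
    obtain ⟨x, hx⟩ := Finset.card_eq_one.mp h1
    have hxu : x ∈ u \ s := by rw [hx]; simp
    rw [Finset.mem_sdiff] at hxu
    refine ⟨x, ⟨hut hxu.1, hxu.2⟩, ?_⟩
    have : u = (u \ s) ∪ s := by
      rw [Finset.sdiff_union_of_subset hsu]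
    rw [this, hx]
    rfl
  · rintro ⟨x, ⟨hxt, hxs⟩, rfl⟩
    refine ⟨Finset.subset_insert _ _, ?_, ?_⟩
    · intro y hy
      rcases Finset.mem_insert.mp hy with h | h
      · rw [h]; exact hxt
      · exact hst h
    · rw [Finset.card_insert_of_notMem hxs]

lemma insert_injOn (s t : Finset V) :
    Set.InjOn (fun x => insert x s) ((t \ s : Finset V) : Set V) := by
  intro x hx y hy hxy
  simp only [Finset.coe_sdiff, Set.mem_sdiff, Finset.mem_coe] at hx hy
  have : x ∈ insert y s := by
    have h : x ∈ insert x s := Finset.mem_insert_self _ _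
    simp only at hxy
    rw [hxy] at h
    exact h
  rcases Finset.mem_insert.mp this with h | h
  · exact h
  · exact absurd h hx.2

lemma card_between {s t : Finset V} (hst : s ⊆ t) :
    (Finset.univ.filter (fun u : Finset V => s ⊆ u ∧ u ⊆ t ∧ u.card = s.card + 1)).card
      = t.card - s.card := by
  rw [between_eq_image hst, Finset.card_image_of_injOn (insert_injOn s t),
    Finset.card_sdiff_of_subset hst]

variable (K : AbstractSimplicialComplex V)

lemma face_of_subset {s t : Finset V} {i j : ℕ} (ht : t ∈ faceSet K j) (hst : s ⊆ t)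
    (hs : s.card = i + 1) : s ∈ faceSet K i := by
  rw [mem_faceSet] at ht ⊢
  refine ⟨?_, hs⟩
  have hne : s.Nonempty := by
    rw [← Finset.card_pos, hs]; omega
  exact (K.isRelLowerSet_faces ht.1).2 hst hne

lemma count_even {i : ℕ} (s : {s // s ∈ faceSet K i}) (t : {t // t ∈ faceSet K (i + 2)}) :
    (((Finset.univ : Finset {u // u ∈ faceSet K (i + 1)}).filter
      (fun u => s.1 ⊆ u.1 ∧ u.1 ⊆ t.1)).card : ZMod 2) = 0 := by
  by_cases hst : s.1 ⊆ t.1
  · have hs := ((mem_faceSet K).mp s.2).2
    have ht := ((mem_faceSet K).mp t.2).2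
    have key : ((Finset.univ : Finset {u // u ∈ faceSet K (i + 1)}).filter
      (fun u => s.1 ⊆ u.1 ∧ u.1 ⊆ t.1)).card = 2 := by
      have h2 := card_between hst
      rw [hs, ht] at h2
      have h3 : i + 2 + 1 - (i + 1) = 2 := by omega
      rw [h3] at h2
      refine Eq.trans ?_ h2
      refine Finset.card_bij (fun u _ => u.1) ?_ ?_ ?_
      · intro u hu
        simp only [Finset.mem_filter, Finset.mem_univ, true_and] at hu ⊢
        exact ⟨hu.1, hu.2, ((mem_faceSet K).mp u.2).2⟩
      · intro u _ v _ huv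
        exact Subtype.ext huv
      · intro u hu
        simp only [Finset.mem_filter, Finset.mem_univ, true_and] at hu
        refine ⟨⟨u, face_of_subset K t.2 hu.2.1 hu.2.2⟩, ?_, rfl⟩
        simp only [Finset.mem_filter, Finset.mem_univ, true_and]
        exact ⟨hu.1, hu.2.1⟩
    rw [key]
    decide
  · have : ((Finset.univ : Finset {u // u ∈ faceSet K (i + 1)}).filter
      (fun u => s.1 ⊆ u.1 ∧ u.1 ⊆ t.1)) = ∅ := by
      apply Finset.filter_eq_empty_iff.mpr
      rintro u _ ⟨h1, h2⟩
      exact hst (h1.trans h2)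
    rw [this]
    simp

lemma vertex_count {j : ℕ} (t : {t // t ∈ faceSet K j}) :
    ((Finset.univ : Finset {u // u ∈ faceSet K 0}).filter (fun u => u.1 ⊆ t.1)).card = j + 1 := by
  have ht := ((mem_faceSet K).mp t.2).2
  rw [← ht]
  symm
  refine Finset.card_bij (fun x _ => ⟨{x}, (mem_faceSet K).mpr ⟨K.singleton_mem x, by simp⟩⟩)
    ?_ ?_ ?_
  · intro x hx
    simp only [Finset.mem_filter, Finset.mem_univ, true_and, Finset.singleton_subset_iff]
    exact hx
  · intro x _ y _ hxy
    simp only [Subtype.mk.injEq, Finset.singleton_inj] at hxy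
    exact hxy
  · rintro ⟨u, hu⟩ hut
    have hc := ((mem_faceSet K).mp hu).2
    obtain ⟨x, hx⟩ := Finset.card_eq_one.mp (by simpa using hc)
    subst hx
    simp only [Finset.mem_filter, Finset.mem_univ, true_and, Finset.singleton_subset_iff] at hut
    exact ⟨x, hut, rfl⟩

lemma zmod2_add_self {M : Type} [AddCommGroup M] [Module (ZMod 2) M] (x : M) : x + x = 0 := by
  have : (2 : ZMod 2) • x = x + x := two_smul _ x
  rw [← this]
  have h2 : (2 : ZMod 2) = 0 := by decide
  rw [h2, zero_smul]

lemma double_up {M : Type} [AddCommGroup M] [Module (ZMod 2) M] {i : ℕ}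
    (s : {s // s ∈ faceSet K i}) (F : {t // t ∈ faceSet K (i + 2)} → M) :
    ∑ u : {u // u ∈ faceSet K (i + 1)} with s.1 ⊆ u.1,
      ∑ t : {t // t ∈ faceSet K (i + 2)} with u.1 ⊆ t.1, F t = 0 := by
  have h1 : ∑ u : {u // u ∈ faceSet K (i + 1)} with s.1 ⊆ u.1,
      ∑ t : {t // t ∈ faceSet K (i + 2)} with u.1 ⊆ t.1, F t
      = ∑ t : {t // t ∈ faceSet K (i + 2)},
        ∑ u : {u // u ∈ faceSet K (i + 1)} with (s.1 ⊆ u.1 ∧ u.1 ⊆ t.1), F t := by
    simp only [Finset.sum_filter]
    simp only [← Finset.sum_filter]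
    rw [Finset.sum_filter]
    simp only [Finset.sum_filter]
    have : ∀ u : {u // u ∈ faceSet K (i + 1)},
      (if s.1 ⊆ u.1 then ∑ t : {t // t ∈ faceSet K (i + 2)}, (if u.1 ⊆ t.1 then F t else 0) else 0)
      = ∑ t : {t // t ∈ faceSet K (i + 2)}, (if s.1 ⊆ u.1 ∧ u.1 ⊆ t.1 then F t else 0) := by
      intro u
      by_cases h : s.1 ⊆ u.1
      · simp [h]
      · simp [h]
    rw [Finset.sum_congr rfl (fun u _ => this u), Finset.sum_comm]
  rw [h1]
  apply Finset.sum_eq_zero
  intro t _
  rw [Finset.sum_const]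
  have := count_even K s t
  rw [← Nat.cast_smul_eq_nsmul (ZMod 2), this, zero_smul]

lemma double_vertex {M : Type} [AddCommGroup M] [Module (ZMod 2) M]
    (F : {t // t ∈ faceSet K 1} → M) :
    ∑ u : {u // u ∈ faceSet K 0},
      ∑ t : {t // t ∈ faceSet K 1} with u.1 ⊆ t.1, F t = 0 := by
  simp only [Finset.sum_filter]
  rw [Finset.sum_comm]
  apply Finset.sum_eq_zero
  intro t _
  rw [← Finset.sum_filter, Finset.sum_const, vertex_count K t]
  rw [← Nat.cast_smul_eq_nsmul (ZMod 2)]
  have : (((1 + 1 : ℕ)) : ZMod 2) = 0 := by decide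
  rw [this, zero_smul]

lemma coboundary_apply {i : ℕ} (f : Cochain K i) (t : {t // t ∈ faceSet K (i + 1)}) :
    coboundary K i f t = ∑ s : {s // s ∈ faceSet K i} with s.1 ⊆ t.1, f s := rfl

lemma coboundary_single {i : ℕ} (s : {s // s ∈ faceSet K i}) :
    coboundary K i (Pi.single s 1)
      = ∑ t : {t // t ∈ faceSet K (i + 1)} with s.1 ⊆ t.1, Pi.single t 1 := by
  funext t
  rw [coboundary_apply, Finset.sum_apply]
  simp only [Finset.sum_filter]
  rw [Finset.sum_eq_single s, Finset.sum_eq_single t]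
  · simp
  · intro b _ hb
    rw [Pi.single_eq_of_ne (Ne.symm hb)]; simp
  · simp
  · intro b _ hb
    rw [Pi.single_eq_of_ne hb]; simp
  · simp

lemma coboundary_coboundary {i : ℕ} (f : Cochain K i) :
    coboundary K (i + 1) (coboundary K i f) = 0 := by
  have hf : f = ∑ s, f s • (Pi.single s (1 : ZMod 2) : Cochain K i) := by
    funext t
    rw [Finset.sum_apply, Finset.sum_eq_single t]
    · simp
    · intro b _ hb
      simp [Pi.single_eq_of_ne (Ne.symm hb)]
    · simp
  rw [hf, map_sum, map_sum]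
  apply Finset.sum_eq_zero
  intro s _
  rw [map_smul, map_smul, coboundary_single, map_sum]
  simp only [coboundary_single]
  rw [double_up K s (fun t => (Pi.single t (1 : ZMod 2) : Cochain K (i + 2))), smul_zero]

lemma coboundary_const :
    coboundary K 0 (fun _ => 1) = 0 := by
  funext t
  rw [coboundary_apply, Finset.sum_const, vertex_count K t]
  have : (((1 + 1 : ℕ)) : ZMod 2) = 0 := by decide
  simp only [nsmul_eq_mul, mul_one, Pi.zero_apply]
  exact this

lemma coboundaries_le_cocycles (i : ℕ) : coboundaries K i ≤ cocycles K i := by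
  cases i with
  | zero =>
    rw [coboundaries, Submodule.span_le]
    rintro _ rfl
    exact coboundary_const K
  | succ i =>
    rintro _ ⟨f, rfl⟩
    exact coboundary_coboundary K f

end Combinatorics

end Vale.Agent.P067
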