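import Mathlib
import Vale.Agent.P067.Lemmas

set_option autoImplicit false
set_option linter.unusedSectionVars false

namespace Vale.Agent.P067

open Finset

section Norm

variable {V : Type} [Fintype V] [DecidableEq V] (K : AbstractSimplicialComplex V)

lemma weight_nonneg (d i : ℕ) (s : Finset V) : 0 ≤ weight K d i s := by
  unfold weight
  positivity

lemma cochainNorm_nonneg (d i : ℕ) (f : Cochain K i) : 0 ≤ cochainNorm K d i f :=
  Finset.sum_nonneg (fun _ _ => weight_nonneg K d i _)

lemma cochainNorm_eq (d i : ℕ) (f : Cochain K i) :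
    cochainNorm K d i f = ∑ s, if f s ≠ 0 then weight K d i s.1 else 0 := by
  rw [cochainNorm, Finset.sum_filter]

lemma cochainNorm_zero (d i : ℕ) : cochainNorm K d i 0 = 0 := by
  rw [cochainNorm_eq]
  simp

lemma cochainNorm_add_le (d i : ℕ) (f g : Cochain K i) :
    cochainNorm K d i (f + g) ≤ cochainNorm K d i f + cochainNorm K d i g := by
  rw [cochainNorm_eq, cochainNorm_eq, cochainNorm_eq, ← Finset.sum_add_distrib]
  apply Finset.sum_le_sum
  intro s _
  have hw := weight_nonneg K d i s.1
  by_cases hf : f s = 0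
  · by_cases hg : g s = 0
    · simp [hf, hg]
    · simp [hf, hg]
  · by_cases hg : g s = 0
    · simp [hf, hg]
    · simp only [ne_eq, hf, not_false_eq_true, if_true, hg]
      split_ifs <;> linarith

lemma cochainNorm_neg (d i : ℕ) (f : Cochain K i) :
    cochainNorm K d i (-f) = cochainNorm K d i f := by
  rw [cochainNorm_eq, cochainNorm_eq]
  simp

lemma cochainNorm_sum_le {ι : Type} (d i : ℕ) (A : Finset ι) (f : ι → Cochain K i) :
    cochainNorm K d i (∑ a ∈ A, f a) ≤ ∑ a ∈ A, cochainNorm K d i (f a) := by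
  classical
  induction A using Finset.induction_on with
  | empty => simp [cochainNorm_zero]
  | insert a A ha ih =>
    rw [Finset.sum_insert ha, Finset.sum_insert ha]
    exact (cochainNorm_add_le K d i _ _).trans (by linarith)

lemma cochainNorm_smul_le (d i : ℕ) (a : ZMod 2) (f : Cochain K i) :
    cochainNorm K d i (a • f) ≤ cochainNorm K d i f := by
  have ha : a = 0 ∨ a = 1 := by
    revert a; decide
  rcases ha with rfl | rfl
  · rw [zero_smul, cochainNorm_zero]; exact cochainNorm_nonneg K d i f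
  · rw [one_smul]

lemma cochainNorm_single (d i : ℕ) (s : {s // s ∈ faceSet K i}) :
    cochainNorm K d i (Pi.single s 1) = weight K d i s.1 := by
  rw [cochainNorm_eq, Finset.sum_eq_single s]
  · simp
  · intro b _ hb
    rw [Pi.single_eq_of_ne hb]; simp
  · simp

variable {K}

lemma topDegree_le {d D : ℕ} (hD : ∀ v : V, topDegree K d {v} ≤ D) {i : ℕ} {s : Finset V}
    (hs : s ∈ faceSet K i) : topDegree K d s ≤ D := by
  have hc := ((mem_faceSet K).mp hs).2
  have hne : s.Nonempty := by
    rw [← Finset.card_pos, hc]; omega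
  obtain ⟨v, hv⟩ := hne
  refine le_trans ?_ (hD v)
  unfold topDegree
  apply Finset.card_le_card
  intro t ht
  rw [Finset.mem_filter] at ht ⊢
  exact ⟨ht.1, (Finset.singleton_subset_iff.mpr hv).trans ht.2⟩

lemma weight_le {d D : ℕ} (hD : ∀ v : V, topDegree K d {v} ≤ D) {i : ℕ} (hi : i ≤ d)
    {s : Finset V} (hs : s ∈ faceSet K i) (hN : 0 < (faceSet K d).card) :
    weight K d i s ≤ D / (faceSet K d).card := by
  unfold weight
  have h1 : (topDegree K d s : ℝ) ≤ D := by exact_mod_cast topDegree_le hD hs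
  have h2 : 1 ≤ ((d + 1).choose (i + 1) : ℝ) := by
    exact_mod_cast Nat.choose_pos (by omega)
  have hN' : (0 : ℝ) < (faceSet K d).card := by exact_mod_cast hN
  apply div_le_div₀ (by positivity) h1 hN'
  nlinarith

lemma weight_pos {d : ℕ} (hp : IsPure K d) {i : ℕ} (hi : i ≤ d) {s : Finset V}
    (hs : s ∈ faceSet K i) : 0 < weight K d i s := by
  obtain ⟨t, ht, hst⟩ := hp s ((mem_faceSet K).mp hs).1
  unfold weight
  have h1 : 0 < (topDegree K d s : ℝ) := by
    have : 0 < topDegree K d s := by
      unfold topDegree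
      exact Finset.card_pos.mpr ⟨t, Finset.mem_filter.mpr ⟨ht, hst⟩⟩
    exact_mod_cast this
  have h2 : 0 < ((d + 1).choose (i + 1) : ℝ) := by
    exact_mod_cast Nat.choose_pos (by omega)
  have hN : 0 < ((faceSet K d).card : ℝ) := by
    exact_mod_cast Finset.card_pos.mpr ⟨t, ht⟩
  positivity

lemma cochainNorm_eq_zero {d : ℕ} (hp : IsPure K d) {i : ℕ} (hi : i ≤ d) {f : Cochain K i}
    (hf : cochainNorm K d i f = 0) : f = 0 := by
  funext s
  by_contra hne
  rw [cochainNorm_eq] at hf
  have h1 := (Finset.sum_eq_zero_iff_of_nonneg (fun s _ => by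
    split_ifs
    · exact weight_nonneg K d i _
    · exact le_rfl)).mp hf s (Finset.mem_univ _)
  simp only [Pi.zero_apply] at hne
  simp only [ne_eq, hne, not_false_eq_true, if_true] at h1
  have := weight_pos hp hi s.2
  linarith

lemma exists_dist (d i : ℕ) (f : Cochain K i) (A : Submodule (ZMod 2) (Cochain K i)) :
    ∃ a ∈ A, cochainNorm K d i (f - a) = cochainDist K d i f A := by
  have : Finite (Cochain K i) := inferInstance
  have hfin : Finite A := Subtype.finite
  obtain ⟨a, ha⟩ := exists_eq_ciInf_of_finite (f := fun a : A => cochainNorm K d i (f - a.1))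
  exact ⟨a.1, a.2, ha⟩

lemma exists_cofill {d : ℕ} {ε : ℝ} (hε : 0 < ε) (hX : IsCoboundaryExpander K d ε) {i : ℕ}
    (hi : i < d) {g : Cochain K (i + 1)} (hg : g ∈ coboundaries K (i + 1)) :
    ∃ f : Cochain K i, coboundary K i f = g ∧
      cochainNorm K d i f ≤ cochainNorm K d (i + 1) g / ε := by
  obtain ⟨f', rfl⟩ := hg
  obtain ⟨a, ha, hda⟩ := exists_dist d i f' (coboundaries K i)
  refine ⟨f' - a, ?_, ?_⟩
  · rw [map_sub]
    have : coboundary K i a = 0 := coboundaries_le_cocycles K i ha
    rw [this, sub_zero]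
  · rw [hda, le_div_iff₀ hε, mul_comm]
    exact hX i hi f'

lemma cocycle_mem {d : ℕ} {ε : ℝ} (hε : 0 < ε) (hp : IsPure K d)
    (hX : IsCoboundaryExpander K d ε) {i : ℕ} (hi : i < d) {f : Cochain K i}
    (hf : coboundary K i f = 0) : f ∈ coboundaries K i := by
  obtain ⟨a, ha, hda⟩ := exists_dist d i f (coboundaries K i)
  have h1 := hX i hi f
  rw [hf, cochainNorm_zero, ← hda] at h1
  have h2 := cochainNorm_nonneg K d i (f - a)
  have h3 : cochainNorm K d i (f - a) = 0 := by
    by_contra hne
    have : 0 < cochainNorm K d i (f - a) := lt_of_le_of_ne h2 (Ne.symm hne)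
    nlinarith [mul_pos hε this]
  have h4 := cochainNorm_eq_zero hp hi.le h3
  rw [sub_eq_zero] at h4
  rw [h4]; exact ha

lemma cofaces_le {d D : ℕ} (hp : IsPure K d) (hD : ∀ v : V, topDegree K d {v} ≤ D) {i : ℕ}
    (e : {s // s ∈ faceSet K i}) :
    ((Finset.univ : Finset {u // u ∈ faceSet K (i + 1)}).filter
      (fun u => e.1 ⊆ u.1)).card ≤ d * D := by
  classical
  have hce := ((mem_faceSet K).mp e.2).2
  have h1 : ((Finset.univ : Finset {u // u ∈ faceSet K (i + 1)}).filter
      (fun u => e.1 ⊆ u.1)).map ⟨Subtype.val, Subtype.val_injective⟩ ⊆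
      ((faceSet K d).filter (fun t => e.1 ⊆ t)).biUnion (fun t =>
        Finset.univ.filter (fun u : Finset V => e.1 ⊆ u ∧ u ⊆ t ∧ u.card = e.1.card + 1)) := by
    intro u hu
    rw [Finset.mem_map] at hu
    obtain ⟨u', hu', rfl⟩ := hu
    simp only [Finset.mem_filter, Finset.mem_univ, true_and] at hu'
    obtain ⟨t, ht, hut⟩ := hp u'.1 ((mem_faceSet K).mp u'.2).1
    rw [Finset.mem_biUnion]
    refine ⟨t, Finset.mem_filter.mpr ⟨ht, hu'.trans hut⟩, ?_⟩
    simp only [Finset.mem_filter, Finset.mem_univ, true_and, Function.Embedding.coeFn_mk]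
    refine ⟨hu', hut, ?_⟩
    rw [hce, ((mem_faceSet K).mp u'.2).2]
  have h2 := Finset.card_le_card h1
  rw [Finset.card_map] at h2
  refine h2.trans ?_
  have h3 := Finset.card_biUnion_le_card_mul ((faceSet K d).filter (fun t => e.1 ⊆ t)) (fun t =>
        Finset.univ.filter (fun u : Finset V => e.1 ⊆ u ∧ u ⊆ t ∧ u.card = e.1.card + 1)) d (by
    intro t ht
    rw [Finset.mem_filter] at ht
    rw [card_between ht.2, hce, ((mem_faceSet K).mp ht.1).2]
    omega)
  refine h3.trans ?_
  rw [mul_comm]
  exact Nat.mul_le_mul_left d (topDegree_le hD e.2)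

lemma cochainNorm_const {d : ℕ} (hN : 0 < (faceSet K d).card) :
    cochainNorm K d 0 (fun _ => 1) = 1 := by
  rw [cochainNorm_eq]
  simp only [ne_eq, one_ne_zero, not_false_eq_true, if_true]
  unfold weight
  rw [← Finset.sum_div]
  have h1 : ∑ s : {s // s ∈ faceSet K 0}, (topDegree K d s.1 : ℝ)
      = ((d + 1 : ℕ) : ℝ) * ((faceSet K d).card : ℝ) := by
    rw [← Nat.cast_sum, ← Nat.cast_mul]
    congr 1
    unfold topDegree
    simp only [Finset.card_filter]
    rw [Finset.sum_comm]
    rw [← Finset.sum_attach]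
    have : ∀ t : {t // t ∈ faceSet K d},
        (∑ s : {s // s ∈ faceSet K 0}, if s.1 ⊆ t.1 then 1 else 0) = d + 1 := by
      intro t
      rw [← Finset.card_filter]
      exact vertex_count K t
    rw [Finset.sum_congr rfl (fun t _ => this t)]
    simp [mul_comm]
  rw [h1]
  have hN' : ((faceSet K d).card : ℝ) ≠ 0 := by
    have : (0 : ℝ) < (faceSet K d).card := by exact_mod_cast hN
    exact this.ne'
  simp only [zero_add, Nat.choose_one_right]
  field_simp

end Norm

end Vale.Agent.P067
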