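import Mathlib
import Vale.Agent.P067.Norm

set_option autoImplicit false
set_option linter.unusedSectionVars false

namespace Vale.Agent.P067

open Finset

section Main

variable {V : Type} [Fintype V] [DecidableEq V] {K : AbstractSimplicialComplex V}

lemma exists_section (i : ℕ) (Q : Submodule (ZMod 2) (Cochain K i)) :
    ∃ ρ : Cochain K i →ₗ[ZMod 2] Cochain K i,
      (∀ g ∈ Q, ρ g = 0) ∧ (∀ g, g - ρ g ∈ Q) ∧
      (∃ T : Finset {s // s ∈ faceSet K i},
        T.card = Module.finrank (ZMod 2) (Cochain K i ⧸ Q) ∧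
        ∀ g, ∀ s, s ∉ T → ρ g s = 0) := by
  classical
  let v : {s // s ∈ faceSet K i} → (Cochain K i ⧸ Q) := fun s => Q.mkQ (Pi.single s 1)
  have hspan : Submodule.span (ZMod 2) (Set.range v) = ⊤ := by
    have h1 : Set.range v = Q.mkQ '' (Set.range (fun s => (Pi.single s (1 : ZMod 2) : Cochain K i))) := by
      rw [← Set.range_comp]
      rfl
    rw [h1, Submodule.span_image]
    have h2 : Submodule.span (ZMod 2) (Set.range (fun s : {s // s ∈ faceSet K i} =>
        (Pi.single s (1 : ZMod 2) : Cochain K i))) = ⊤ := by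
      have h3 := (Pi.basisFun (ZMod 2) {s // s ∈ faceSet K i}).span_eq
      rw [← h3]
      congr 1
      ext x
      simp [Pi.basisFun_apply]
    rw [h2, Submodule.map_top, Submodule.range_mkQ]
  obtain ⟨κ, a, ha, hsp, hli⟩ := exists_linearIndependent' (ZMod 2) v
  rw [hspan] at hsp
  let b : Module.Basis κ (ZMod 2) (Cochain K i ⧸ Q) := Module.Basis.mk hli (by rw [hsp])
  have hfinκ : Finite κ := Finite.of_injective a ha
  have hfκ : Fintype κ := Fintype.ofFinite κ
  let r : (Cochain K i ⧸ Q) →ₗ[ZMod 2] Cochain K i :=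
    b.constr (ZMod 2) (fun j => Pi.single (a j) 1)
  have hr : ∀ q, Q.mkQ (r q) = q := by
    have : Q.mkQ ∘ₗ r = LinearMap.id := by
      apply b.ext
      intro j
      simp only [LinearMap.comp_apply, LinearMap.id_apply]
      have h4 : r (b j) = Pi.single (a j) 1 := by
        simp only [r]
        rw [Module.Basis.constr_basis]
      rw [h4]
      simp only [b, Module.Basis.mk_apply]
      rfl
    intro q
    have h5 := LinearMap.congr_fun this q
    simpa using h5
  refine ⟨r ∘ₗ Q.mkQ, ?_, ?_, Finset.univ.image a, ?_, ?_⟩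
  · intro g hg
    rw [LinearMap.comp_apply]
    have : Q.mkQ g = 0 := by simpa using hg
    rw [this, map_zero]
  · intro g
    have : Q.mkQ (g - (r ∘ₗ Q.mkQ) g) = 0 := by
      rw [map_sub, LinearMap.comp_apply, hr, sub_self]
    rw [← LinearMap.mem_ker, Submodule.ker_mkQ] at this
    exact this
  · rw [Finset.card_image_of_injective _ ha, Finset.card_univ]
    exact (Module.finrank_eq_card_basis b).symm
  · intro g s hs
    rw [LinearMap.comp_apply]
    simp only [r]
    rw [Module.Basis.constr_apply_fintype]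
    rw [Finset.sum_apply]
    apply Finset.sum_eq_zero
    intro j _
    rw [Pi.smul_apply]
    have hne : s ≠ a j := by
      rintro rfl
      exact hs (Finset.mem_image_of_mem _ (Finset.mem_univ _))
    rw [Pi.single_eq_of_ne hne, smul_zero]

lemma cochainNorm_le_of_support {d D : ℕ} (hD : ∀ v : V, topDegree K d {v} ≤ D) {i : ℕ}
    (hi : i ≤ d) (hN : 0 < (faceSet K d).card) (T : Finset {s // s ∈ faceSet K i})
    {g : Cochain K i} (hg : ∀ s, s ∉ T → g s = 0) :
    cochainNorm K d i g ≤ T.card * (D / (faceSet K d).card) := by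
  rw [cochainNorm_eq]
  have h1 : ∑ s, (if g s ≠ 0 then weight K d i s.1 else 0)
      = ∑ s ∈ T, (if g s ≠ 0 then weight K d i s.1 else 0) := by
    symm
    apply Finset.sum_subset (Finset.subset_univ _)
    intro s _ hs
    simp [hg s hs]
  rw [h1]
  calc ∑ s ∈ T, (if g s ≠ 0 then weight K d i s.1 else 0)
      ≤ ∑ s ∈ T, ((D : ℝ) / (faceSet K d).card) := by
        apply Finset.sum_le_sum
        intro s _
        split_ifs
        · exact weight_le hD hi s.2 hN
        · positivity
    _ = T.card * (D / (faceSet K d).card) := by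
        rw [Finset.sum_const, nsmul_eq_mul]

lemma bound_step {d D : ℕ} (hp : IsPure K d) (hD : ∀ v : V, topDegree K d {v} ≤ D) {i : ℕ}
    (hi : i ≤ d) (hN : 0 < (faceSet K d).card) (e : {s // s ∈ faceSet K i})
    (b : {u // u ∈ faceSet K (i + 1)} → Cochain K i) (β : ℝ) (hβ : 0 ≤ β)
    (hb : ∀ u, cochainNorm K d i (b u) ≤ β) :
    cochainNorm K d i (Pi.single e 1 +
      ∑ u : {u // u ∈ faceSet K (i + 1)} with e.1 ⊆ u.1, b u)
      ≤ D / (faceSet K d).card + d * D * β := by
  refine (cochainNorm_add_le K d i _ _).trans ?_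
  have h1 : cochainNorm K d i (Pi.single e 1) ≤ D / (faceSet K d).card := by
    rw [cochainNorm_single]
    exact weight_le hD hi e.2 hN
  have h2 : cochainNorm K d i (∑ u : {u // u ∈ faceSet K (i + 1)} with e.1 ⊆ u.1, b u)
      ≤ d * D * β := by
    refine (cochainNorm_sum_le K d i _ _).trans ?_
    refine (Finset.sum_le_sum (fun u _ => hb u)).trans ?_
    rw [Finset.sum_const, nsmul_eq_mul]
    apply mul_le_mul_of_nonneg_right _ hβ
    exact_mod_cast cofaces_le hp hD e
  linarith

theorem descent {d D : ℕ} {ε : ℝ} (hε : 0 < ε) (hp : IsPure K d)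
    (hD : ∀ v : V, topDegree K d {v} ≤ D) (hX : IsCoboundaryExpander K d ε)
    (hN : 0 < (faceSet K d).card) (hD1 : 1 ≤ D) (m : ℕ) (hm : m < d) :
    ∀ n j, j + n = m → ∃ b : {u // u ∈ faceSet K (j + 1)} → Cochain K j,
      (∀ e : {s // s ∈ faceSet K j}, coboundary K j (Pi.single e 1 +
        ∑ u : {u // u ∈ faceSet K (j + 1)} with e.1 ⊆ u.1, b u) = 0) ∧
      (∀ u, cochainNorm K d j (b u) ≤
        (((d : ℝ) + 1) * D * (1 + 1 / ε)) ^ (n + 1) *
          (1 + Module.finrank (ZMod 2) (Cochain K (m + 1) ⧸ coboundaries K (m + 1)))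
          / (faceSet K d).card) := by
  set h : ℕ := Module.finrank (ZMod 2) (Cochain K (m + 1) ⧸ coboundaries K (m + 1)) with hh
  set N : ℝ := ((faceSet K d).card : ℝ) with hNdef
  have hNpos : 0 < N := by rw [hNdef]; exact_mod_cast hN
  set C : ℝ := ((d : ℝ) + 1) * D * (1 + 1 / ε) with hC
  have hDr : (1 : ℝ) ≤ D := by exact_mod_cast hD1
  have hd0 : (0 : ℝ) ≤ d := by positivity
  have hC1 : 1 ≤ C := by
    have h1 : (1 : ℝ) ≤ ((d : ℝ) + 1) * D := by nlinarith
    have h2 : (1 : ℝ) ≤ 1 + 1 / ε := by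
      have : 0 < 1 / ε := by positivity
      linarith
    rw [hC]
    nlinarith
  have hCε : ((d : ℝ) + 1) * D / ε ≤ C := by
    rw [hC, mul_add, mul_one, mul_one_div]
    have : 0 ≤ ((d : ℝ) + 1) * D := by positivity
    linarith
  intro n
  induction n with
  | zero =>
    intro j hj
    rw [Nat.add_zero] at hj
    rw [hj]
    obtain ⟨ρ, hρ0, hρ1, T, hT, hsupp⟩ := exists_section (K := K) (m + 1) (coboundaries K (m + 1))
    have hnorm : ∀ τ : {s // s ∈ faceSet K (m + 1)},
        cochainNorm K d (m + 1) (Pi.single τ 1 - ρ (Pi.single τ 1)) ≤ (1 + h) * (D / N) := by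
      intro τ
      rw [sub_eq_add_neg]
      refine (cochainNorm_add_le K d _ _ _).trans ?_
      rw [cochainNorm_neg, cochainNorm_single]
      have h1 := weight_le hD (i := m + 1) (by omega) τ.2 hN
      have h2 := cochainNorm_le_of_support hD (i := m + 1) (by omega) hN T
        (g := ρ (Pi.single τ 1)) (fun s hs => hsupp _ s hs)
      rw [hT] at h2
      rw [add_mul, one_mul]
      exact add_le_add h1 h2
    have hex : ∀ τ : {s // s ∈ faceSet K (m + 1)}, ∃ f : Cochain K m,
        coboundary K m f = Pi.single τ 1 - ρ (Pi.single τ 1) ∧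
        cochainNorm K d m f ≤ (1 + h) * (D / N) / ε := by
      intro τ
      obtain ⟨f, hf1, hf2⟩ := exists_cofill hε hX hm (hρ1 (Pi.single τ 1))
      refine ⟨f, hf1, hf2.trans ?_⟩
      exact div_le_div_of_nonneg_right (hnorm τ) hε.le
    choose w hw1 hw2 using hex
    refine ⟨w, ?_, ?_⟩
    · intro e
      have e1 : coboundary K m (Pi.single e 1 +
        ∑ u : {u // u ∈ faceSet K (m + 1)} with e.1 ⊆ u.1, w u)
        = coboundary K m (Pi.single e 1) + (coboundary K m (Pi.single e 1) -
          ρ (coboundary K m (Pi.single e 1))) := by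
        rw [map_add, map_sum]
        congr 1
        simp only [hw1]
        rw [Finset.sum_sub_distrib, ← map_sum, ← coboundary_single]
      have e2 : ρ (coboundary K m (Pi.single e 1)) = 0 := hρ0 _ ⟨_, rfl⟩
      rw [e1, e2, sub_zero]
      exact zmod2_add_self _
    · intro u
      refine (hw2 u).trans ?_
      rw [zero_add, pow_one]
      have : (1 + (h : ℝ)) * (D / N) / ε = (D / ε) * (1 + h) / N := by
        field_simp
      rw [this]
      apply div_le_div_of_nonneg_right _ hNpos.le
      apply mul_le_mul_of_nonneg_right _ (by positivity)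
      refine le_trans ?_ hCε
      apply div_le_div_of_nonneg_right _ hε.le
      nlinarith
  | succ n ih =>
    intro j hj
    obtain ⟨b, hb1, hb2⟩ := ih (j + 1) (by omega)
    set β : ℝ := C ^ (n + 1) * (1 + h) / N with hβ
    have hβ0 : 0 ≤ β := by positivity
    have hex : ∀ e : {s // s ∈ faceSet K (j + 1)}, ∃ f : Cochain K j,
        coboundary K j f = Pi.single e 1 +
          ∑ u : {u // u ∈ faceSet K (j + 1 + 1)} with e.1 ⊆ u.1, b u ∧
        cochainNorm K d j f ≤ (D / N + d * D * β) / ε := by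
      intro e
      have hmem := cocycle_mem hε hp hX (i := j + 1) (by omega) (hb1 e)
      obtain ⟨f, hf1, hf2⟩ := exists_cofill hε hX (i := j) (by omega) hmem
      refine ⟨f, hf1, hf2.trans ?_⟩
      apply div_le_div_of_nonneg_right _ hε.le
      exact bound_step hp hD (i := j + 1) (by omega) hN e b β hβ0 hb2
    choose w hw1 hw2 using hex
    refine ⟨w, ?_, ?_⟩
    · intro e
      rw [map_add, map_sum]
      simp only [hw1]
      rw [Finset.sum_add_distrib, ← coboundary_single, double_up K e b, add_zero]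
      exact zmod2_add_self _
    · intro u
      refine (hw2 u).trans ?_
      have h1 : 1 / N ≤ β := by
        rw [hβ]
        apply div_le_div_of_nonneg_right _ hNpos.le
        have h2 : 1 ≤ C ^ (n + 1) := one_le_pow₀ hC1
        have h3 : (1 : ℝ) ≤ 1 + h := by
          have : (0 : ℝ) ≤ h := by positivity
          linarith
        nlinarith
      have h2 : (D / N + d * D * β) / ε ≤ (((d : ℝ) + 1) * D / ε) * β := by
        have h3 : (D : ℝ) / N ≤ D * β := by
          rw [div_eq_mul_one_div]
          exact mul_le_mul_of_nonneg_left h1 (by positivity)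
        rw [div_mul_eq_mul_div]
        apply div_le_div_of_nonneg_right _ hε.le
        nlinarith
      refine h2.trans ?_
      have h4 : C ^ (n + 1 + 1) * (1 + h) / N = C * β := by
        rw [hβ, pow_succ]
        ring
      rw [h4]
      exact mul_le_mul_of_nonneg_right hCε hβ0

theorem main_bound {d D : ℕ} {ε : ℝ} (hε : 0 < ε) (hp : IsPure K d)
    (hD : ∀ v : V, topDegree K d {v} ≤ D) (hX : IsCoboundaryExpander K d ε)
    (hN : 0 < (faceSet K d).card) (hD1 : 1 ≤ D) (m : ℕ) (hm : m < d) :
    ((faceSet K d).card : ℝ) ≤ (((d : ℝ) + 1) * D * (1 + 1 / ε)) ^ (m + 2) *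
      (1 + Module.finrank (ZMod 2) (Cochain K (m + 1) ⧸ coboundaries K (m + 1))) := by
  classical
  obtain ⟨b, hb1, hb2⟩ := descent hε hp hD hX hN hD1 m hm m 0 (Nat.zero_add m)
  set h : ℕ := Module.finrank (ZMod 2) (Cochain K (m + 1) ⧸ coboundaries K (m + 1)) with hh
  set N : ℝ := ((faceSet K d).card : ℝ) with hNdef
  have hNpos : 0 < N := by rw [hNdef]; exact_mod_cast hN
  set C : ℝ := ((d : ℝ) + 1) * D * (1 + 1 / ε) with hC
  have hDr : (1 : ℝ) ≤ D := by exact_mod_cast hD1
  have hd0 : (0 : ℝ) ≤ d := by positivity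
  have hCD : ((d : ℝ) + 1) * D ≤ C := by
    rw [hC, mul_add, mul_one]
    have : 0 ≤ ((d : ℝ) + 1) * D * (1 / ε) := by positivity
    linarith
  have hC1 : 1 ≤ C := by
    have h1 : (1 : ℝ) ≤ ((d : ℝ) + 1) * D := by nlinarith
    linarith
  set β : ℝ := C ^ (m + 1) * (1 + h) / N with hβ
  have hβ0 : 0 ≤ β := by positivity
  have h1 : 1 / N ≤ β := by
    rw [hβ]
    apply div_le_div_of_nonneg_right _ hNpos.le
    have h2 : 1 ≤ C ^ (m + 1) := one_le_pow₀ hC1
    have h3 : (1 : ℝ) ≤ 1 + h := by
      have : (0 : ℝ) ≤ h := by positivity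
      linarith
    nlinarith
  by_contra hcon
  push Not at hcon
  have hlt : C * β < 1 := by
    have : C * β = C ^ (m + 2) * (1 + h) / N := by
      rw [hβ]; ring
    rw [this, div_lt_one hNpos]
    exact hcon
  have hzero : ∀ e : {s // s ∈ faceSet K 0}, (Pi.single e 1 : Cochain K 0) +
      ∑ u : {u // u ∈ faceSet K (0 + 1)} with e.1 ⊆ u.1, b u = 0 := by
    intro e
    have hmem := cocycle_mem hε hp hX (i := 0) (by omega) (hb1 e)
    have hbd := bound_step hp hD (i := 0) (by omega) hN e b β hβ0 hb2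
    rw [coboundaries, Submodule.mem_span_singleton] at hmem
    obtain ⟨a, ha⟩ := hmem
    have ha01 : a = 0 ∨ a = 1 := by
      clear ha
      revert a
      decide
    rcases ha01 with rfl | rfl
    · rw [← ha, zero_smul]
    · exfalso
      rw [← ha, one_smul, cochainNorm_const hN] at hbd
      have h3 : (D : ℝ) / N ≤ D * β := by
        rw [div_eq_mul_one_div]
        exact mul_le_mul_of_nonneg_left h1 (by positivity)
      have h4 : (D : ℝ) / N + d * D * β ≤ C * β := by
        have : ((d : ℝ) + 1) * D * β ≤ C * β := mul_le_mul_of_nonneg_right hCD hβ0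
        nlinarith
      linarith
  have hsum : ∑ e : {s // s ∈ faceSet K 0}, ((Pi.single e 1 : Cochain K 0) +
      ∑ u : {u // u ∈ faceSet K (0 + 1)} with e.1 ⊆ u.1, b u) = 0 :=
    Finset.sum_eq_zero (fun e _ => hzero e)
  rw [Finset.sum_add_distrib] at hsum
  have hdv := double_vertex K b
  rw [hdv, add_zero] at hsum
  obtain ⟨t, ht⟩ := Finset.card_pos.mp hN
  have hct := ((mem_faceSet K).mp ht).2
  have hne : t.Nonempty := by
    rw [← Finset.card_pos, hct]; omega
  obtain ⟨v, _⟩ := hne
  have hv : ({v} : Finset V) ∈ faceSet K 0 := (mem_faceSet K).mpr ⟨K.singleton_mem v, by simp⟩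
  have := congrFun hsum ⟨{v}, hv⟩
  rw [Finset.sum_apply, Finset.sum_eq_single ⟨{v}, hv⟩] at this
  · simp at this
  · intro c _ hc
    rw [Pi.single_eq_of_ne (Ne.symm hc)]
  · simp

end Main

end Vale.Agent.P067
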