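import Mathlib
import Vale.Agent.P067.Main

set_option autoImplicit false
set_option linter.unusedSectionVars false

namespace Vale.Agent.P067

open Finset

section Euler

variable {V : Type} [Fintype V] [DecidableEq V] {K : AbstractSimplicialComplex V}

lemma finrank_cochain (i : ℕ) :
    Module.finrank (ZMod 2) (Cochain K i) = (faceSet K i).card := by
  rw [Module.finrank_fintype_fun_eq_card, Fintype.card_coe]

lemma finrank_quot_add (i : ℕ) :
    Module.finrank (ZMod 2) (Cochain K i ⧸ coboundaries K i)
      + Module.finrank (ZMod 2) (coboundaries K i) = (faceSet K i).card := by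
  rw [Submodule.finrank_quotient_add_finrank, finrank_cochain]

lemma finrank_step {d : ℕ} {ε : ℝ} (hε : 0 < ε) (hp : IsPure K d)
    (hX : IsCoboundaryExpander K d ε) {i : ℕ} (hi : i < d) :
    Module.finrank (ZMod 2) (Cochain K (i + 1) ⧸ coboundaries K (i + 1))
      + Module.finrank (ZMod 2) (Cochain K i ⧸ coboundaries K i) = (faceSet K (i + 1)).card := by
  have hker : coboundaries K i = LinearMap.ker (coboundary K i) := by
    apply le_antisymm
    · exact coboundaries_le_cocycles K i
    · intro f hf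
      exact cocycle_mem hε hp hX hi hf
  have h1 : Module.finrank (ZMod 2) (Cochain K i ⧸ coboundaries K i)
      = Module.finrank (ZMod 2) (coboundaries K (i + 1)) := by
    rw [hker]
    exact LinearEquiv.finrank_eq (LinearMap.quotKerEquivRange (coboundary K i))
  rw [h1]
  exact finrank_quot_add (i + 1)

lemma finrank_zero [Nonempty V] :
    Module.finrank (ZMod 2) (Cochain K 0 ⧸ coboundaries K 0) + 1 = (faceSet K 0).card := by
  rw [← finrank_quot_add 0]
  congr 1
  obtain ⟨v⟩ := (inferInstance : Nonempty V)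
  have hv : ({v} : Finset V) ∈ faceSet K 0 := (mem_faceSet K).mpr ⟨K.singleton_mem v, by simp⟩
  rw [coboundaries, finrank_span_singleton]
  intro h
  have := congrFun h ⟨{v}, hv⟩
  simp at this

lemma finrank_quot_eq [Nonempty V] {d : ℕ} {ε : ℝ} (hε : 0 < ε) (hp : IsPure K d)
    (hX : IsCoboundaryExpander K d ε) (k : ℕ) (hk : k ≤ d) :
    (Module.finrank (ZMod 2) (Cochain K k ⧸ coboundaries K k) : ℤ)
      = ∑ i ∈ Finset.range (k + 1), (-1) ^ (k - i) * ((faceSet K i).card : ℤ) - (-1) ^ k := by
  induction k with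
  | zero =>
    have h := finrank_zero (K := K)
    have h' : (Module.finrank (ZMod 2) (Cochain K 0 ⧸ coboundaries K 0) : ℤ) + 1
      = (faceSet K 0).card := by exact_mod_cast h
    simp only [zero_add, Finset.range_one, Finset.sum_singleton, Nat.sub_zero, pow_zero, one_mul]
    linarith
  | succ k ih =>
    have h1 := ih (by omega)
    have h2 := finrank_step hε hp hX (i := k) (by omega)
    have h2' : (Module.finrank (ZMod 2) (Cochain K (k + 1) ⧸ coboundaries K (k + 1)) : ℤ)
      + (Module.finrank (ZMod 2) (Cochain K k ⧸ coboundaries K k) : ℤ)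
      = ((faceSet K (k + 1)).card : ℤ) := by exact_mod_cast h2
    rw [Finset.sum_range_succ]
    have h3 : ∑ i ∈ Finset.range (k + 1), (-1 : ℤ) ^ (k + 1 - i) * ((faceSet K i).card : ℤ)
        = - ∑ i ∈ Finset.range (k + 1), (-1 : ℤ) ^ (k - i) * ((faceSet K i).card : ℤ) := by
      rw [← Finset.sum_neg_distrib]
      apply Finset.sum_congr rfl
      intro i hi
      rw [Finset.mem_range] at hi
      have : k + 1 - i = (k - i) + 1 := by omega
      rw [this, pow_succ]
      ring
    rw [h3]
    simp only [Nat.sub_self, pow_zero, one_mul, pow_succ]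
    linarith

lemma faceSet_succ_empty {d : ℕ} (hp : IsPure K d) : faceSet K (d + 1) = ∅ := by
  apply Finset.eq_empty_of_forall_notMem
  intro s hs
  rw [mem_faceSet] at hs
  obtain ⟨t, ht, hst⟩ := hp s hs.1
  have h1 := Finset.card_le_card hst
  rw [((mem_faceSet K).mp ht).2, hs.2] at h1
  omega

lemma cocycles_top {d : ℕ} (hp : IsPure K d) : cocycles K d = ⊤ := by
  rw [eq_top_iff]
  intro f _
  rw [cocycles, LinearMap.mem_ker]
  funext t
  have h0 := faceSet_succ_empty hp
  exact absurd t.2 (Finset.eq_empty_iff_forall_notMem.mp h0 t.1)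

lemma finrank_cohomology_top {d : ℕ} (hp : IsPure K d) :
    Module.finrank (ZMod 2) (Cohomology K d)
      = Module.finrank (ZMod 2) (Cochain K d ⧸ coboundaries K d) := by
  have h1 := Submodule.finrank_quotient_add_finrank
    ((coboundaries K d).submoduleOf (cocycles K d))
  have h2 : Module.finrank (ZMod 2) ((coboundaries K d).submoduleOf (cocycles K d))
      = Module.finrank (ZMod 2) (coboundaries K d) :=
    LinearEquiv.finrank_eq (Submodule.submoduleOfEquivOfLe (coboundaries_le_cocycles K d))
  have h3 : Module.finrank (ZMod 2) (cocycles K d) = (faceSet K d).card := by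
    rw [cocycles_top hp, finrank_top, finrank_cochain]
  have h4 := finrank_quot_add (K := K) d
  rw [h2, h3] at h1
  have h5 : Module.finrank (ZMod 2) (Cohomology K d)
      = Module.finrank (ZMod 2)
        ((cocycles K d) ⧸ (coboundaries K d).submoduleOf (cocycles K d)) := rfl
  rw [h5]
  omega

lemma card_vertex_le {d : ℕ} (hp : IsPure K d) :
    Fintype.card V ≤ (d + 1) * (faceSet K d).card := by
  classical
  have h1 : (Finset.univ : Finset V) ⊆ (faceSet K d).biUnion (fun t => t) := by
    intro v _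
    obtain ⟨t, ht, hvt⟩ := hp {v} (K.singleton_mem v)
    rw [Finset.mem_biUnion]
    exact ⟨t, ht, Finset.singleton_subset_iff.mp hvt⟩
  have h2 := Finset.card_le_card h1
  rw [Finset.card_univ] at h2
  refine h2.trans ?_
  have h3 := Finset.card_biUnion_le_card_mul (faceSet K d) (fun t => t) (d + 1) (by
    intro t ht
    rw [((mem_faceSet K).mp ht).2])
  rw [mul_comm]
  exact h3

theorem uniform_bound (d D : ℕ) (ε : ℝ) (hε : 0 < ε) :
    ∃ c : ℝ, 0 < c ∧ ∀ (V : Type) [Fintype V] [DecidableEq V] (K : AbstractSimplicialComplex V),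
      IsPure K d → (∀ v : V, topDegree K d {v} ≤ D) → IsCoboundaryExpander K d ε →
      ∀ k, 1 ≤ k → k ≤ d → c * Fintype.card V ≤
        1 + Module.finrank (ZMod 2) (Cochain K k ⧸ coboundaries K k) := by
  set C : ℝ := ((d : ℝ) + 1) * (D + 1) * (1 + 1 / ε) with hC
  have hd0 : (0 : ℝ) ≤ d := by positivity
  have hD0 : (0 : ℝ) ≤ D := by positivity
  have h2 : (1 : ℝ) ≤ 1 + 1 / ε := by
      have : 0 < 1 / ε := by positivity
      linarith
  have h1 : (1 : ℝ) ≤ ((d : ℝ) + 1) * (D + 1) := by nlinarith
  have hC1 : 1 ≤ C := by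
    rw [hC]
    nlinarith
  refine ⟨1 / (((d : ℝ) + 1) * C ^ (d + 1)), by positivity, ?_⟩
  intro V _ _ K hp hD hX k hk1 hkd
  rcases isEmpty_or_nonempty V with hV | hV
  · have : Fintype.card V = 0 := Fintype.card_eq_zero
    rw [this]
    simp only [Nat.cast_zero, mul_zero]
    positivity
  · obtain ⟨v⟩ := hV
    obtain ⟨t, ht, hvt⟩ := hp {v} (K.singleton_mem v)
    have hN : 0 < (faceSet K d).card := Finset.card_pos.mpr ⟨t, ht⟩
    have hD1 : 1 ≤ D := by
      refine le_trans ?_ (hD v)
      exact Finset.card_pos.mpr ⟨t, Finset.mem_filter.mpr ⟨ht, hvt⟩⟩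
    obtain ⟨m, rfl⟩ : ∃ m, k = m + 1 := ⟨k - 1, by omega⟩
    have hmain := main_bound hε hp hD hX hN hD1 m (by omega)
    have hcard := card_vertex_le hp
    have hcard' : (Fintype.card V : ℝ) ≤ ((d : ℝ) + 1) * (faceSet K d).card := by
      exact_mod_cast hcard
    set H : ℝ := 1 + Module.finrank (ZMod 2) (Cochain K (m + 1) ⧸ coboundaries K (m + 1)) with hH
    have hH0 : 0 ≤ H := by positivity
    rw [div_mul_eq_mul_div, one_mul, div_le_iff₀ (by positivity)]
    refine hcard'.trans ?_
    have h3 : (((d : ℝ) + 1) * D * (1 + 1 / ε)) ^ (m + 2) ≤ C ^ (d + 1) := by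
      have h4 : ((d : ℝ) + 1) * D * (1 + 1 / ε) ≤ C := by
        rw [hC]
        apply mul_le_mul_of_nonneg_right _ (by linarith)
        apply mul_le_mul_of_nonneg_left _ (by linarith)
        linarith
      have h5 : 0 ≤ ((d : ℝ) + 1) * D * (1 + 1 / ε) := by positivity
      refine (pow_le_pow_left₀ h5 h4 _).trans ?_
      exact pow_le_pow_right₀ hC1 (by omega)
    calc ((d : ℝ) + 1) * (faceSet K d).card
        ≤ ((d : ℝ) + 1) * (C ^ (d + 1) * H) := by
          apply mul_le_mul_of_nonneg_left _ (by linarith)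
          exact hmain.trans (mul_le_mul_of_nonneg_right h3 hH0)
      _ = H * (((d : ℝ) + 1) * C ^ (d + 1)) := by ring

end Euler

end Vale.Agent.P067
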